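import Vale.Agent.Lib.P064B.Host

/-!
The counting inequality behind the second Kahn-Kalai conjecture for host graphs of bounded degree,
and the comparison of the two expectation thresholds for such graphs.

All graphs live on the vertex set `Fin n` (a graph with fewer vertices is padded with isolated
vertices). Write `N(G, F)` for the number of subgraphs of `G` isomorphic to `F` (Mathlib's
`SimpleGraph.copyCount G F`), `K_n` for the complete graph, `e(F)` for the number of edges of `F`;
the expected number of copies of `F` in the binomial random graph of density `p` is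
`N(K_n, F) * p ^ e(F)` (`expCopies`). The expectation threshold of `H` (`expThreshold`) is the
least `p` in `[0, 1]` at which every `F ≤ H` has at least one half expected copies; the fractional
expectation threshold (`fracExpThreshold`) is the least `p` in `[0, 1]` at which every `F ≤ H` has
at least `N(H, F) / 2` expected copies.

First part: if every vertex of `H` has at most `D` neighbours and `q ≥ 0` is such that every
`F' ≤ H` has expected count at least one at density `q`, then for every graph `F`

  `N(H, F) ≤ N(K_n, F) * (min 1 (89 * D * q)) ^ e(F)`.

Second part: if every vertex of `H` has at most `D` neighbours, then the fractional expectation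
threshold of `H` is at most `178 * D` times its expectation threshold.
-/

namespace Vale.Agent.Results.P064.BoundedDegree

theorem result :
    (∀ (n : ℕ) (H : SimpleGraph (Fin n)) (D : ℕ) (q : ℝ), 0 ≤ q →
      (∀ v : Fin n, (H.neighborSet v).ncard ≤ D) →
      (∀ F' : SimpleGraph (Fin n), F' ≤ H →
        1 ≤ ((⊤ : SimpleGraph (Fin n)).copyCount F' : ℝ) * q ^ F'.edgeSet.ncard) →
      ∀ F : SimpleGraph (Fin n),
        (H.copyCount F : ℝ) ≤
          ((⊤ : SimpleGraph (Fin n)).copyCount F : ℝ) *
            (min 1 (89 * (D : ℝ) * q)) ^ F.edgeSet.ncard) ∧
    (∀ (n : ℕ) (H : SimpleGraph (Fin n)) (D : ℕ),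
      (∀ v : Fin n, (H.neighborSet v).ncard ≤ D) →
      Vale.Agent.Lib.Helper7.P064M.fracExpThreshold H
        ≤ 178 * (D : ℝ) * Vale.Agent.Lib.Helper7.P064M.expThreshold H) :=
  ⟨fun _ H D q hq0 hD hyp F => Vale.Agent.Lib.P064B.bounded_degree_copies H D hD q hq0 hyp F,
    fun _ H D hD => Vale.Agent.Lib.P064B.bounded_degree_threshold H D hD⟩

end Vale.Agent.Results.P064.BoundedDegree
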