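import Vale.Agent.Lib.P064D.General
import Vale.Agent.Lib.P064D.Forest
import Vale.Agent.Lib.Helper7.P064T6
import Vale.Agent.Lib.P064T.ForestCount

/-!
The second Kahn-Kalai conjecture: the counting inequality of Dubroff, Kahn and Park in three
cases, and comparisons of the two expectation thresholds. (One statement collecting the results
of the hand-ins `BoundedDegree`, `StarForests`, `GeneralAndForestHosts`, `ThresholdComparison`.)

Graphs live on the vertex set `Fin n` (pad with isolated vertices). With `N(G, F)` the number of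
subgraphs of `G` isomorphic to `F` and `K_n` the complete graph, the expected number of copies of
`F` at density `p` is `N(K_n, F) * p ^ e(F)` (`expCopies`). The expectation threshold of `H`
(`expThreshold`, `p_E`) is the least `p` in `[0, 1]` at which every `F ≤ H` has at least one half
expected copies; the fractional expectation threshold (`fracExpThreshold`) is the least `p` in
`[0, 1]` at which every `F ≤ H` has at least `N(H, F) / 2` expected copies. Write `L` for
`Nat.log 2 n`. A star forest is a graph in which every edge has an endpoint whose only neighbour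
is the other endpoint; a forest is an acyclic graph.

Counting part: if every `F' ≤ H` has expected count at least one at density `q ≥ 0`, then
`N(H, F) ≤ N(K_n, F) * x ^ e(F)` for every graph `F` with `x = min 1 (89 * D * q)` when all
degrees of `H` are at most `D`; for every star forest `F` with `x = min 1 (1000 * q)`; for every
forest `F` with `x = min 1 (8 * (6 * q + (1 + L) / n))`.

Threshold part: the first threshold is at most the second; the second is at most
`178 * (12 * n * p_E + L + 1) * p_E`; at most `178 * D * p_E` when all degrees of `H` are at most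
`D`; at most `2000 * p_E` when `H` is a star forest; at most `96 * p_E + 8 * (1 + L) / n` when
`H` is a forest.
-/

namespace Vale.Agent.Results.P064.CountingAndThresholds

theorem result :
    (∀ (n : ℕ) (H : SimpleGraph (Fin n)) (q : ℝ), 0 ≤ q →
      (∀ F' : SimpleGraph (Fin n), F' ≤ H →
        1 ≤ ((⊤ : SimpleGraph (Fin n)).copyCount F' : ℝ) * q ^ F'.edgeSet.ncard) →
      (∀ D : ℕ, (∀ v : Fin n, (H.neighborSet v).ncard ≤ D) → ∀ F : SimpleGraph (Fin n),
        (H.copyCount F : ℝ) ≤
          ((⊤ : SimpleGraph (Fin n)).copyCount F : ℝ) *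
            (min 1 (89 * (D : ℝ) * q)) ^ F.edgeSet.ncard) ∧
      (∀ F : SimpleGraph (Fin n), Vale.Agent.Lib.P064T.IsStarForest F →
        (H.copyCount F : ℝ) ≤
          ((⊤ : SimpleGraph (Fin n)).copyCount F : ℝ) * (min 1 (1000 * q)) ^ F.edgeSet.ncard) ∧
      (∀ F : SimpleGraph (Fin n), F.IsAcyclic →
        (H.copyCount F : ℝ) ≤
          ((⊤ : SimpleGraph (Fin n)).copyCount F : ℝ) *
            (min 1 (8 * (6 * q + (1 + (Nat.log 2 n : ℝ)) / (n : ℝ)))) ^ F.edgeSet.ncard)) ∧
    (∀ (n : ℕ) (H : SimpleGraph (Fin n)),
      Vale.Agent.Lib.Helper7.P064M.expThreshold H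
        ≤ Vale.Agent.Lib.Helper7.P064M.fracExpThreshold H ∧
      Vale.Agent.Lib.Helper7.P064M.fracExpThreshold H ≤
        178 * (12 * (n : ℝ) * Vale.Agent.Lib.Helper7.P064M.expThreshold H
          + (Nat.log 2 n : ℝ) + 1) * Vale.Agent.Lib.Helper7.P064M.expThreshold H ∧
      (∀ D : ℕ, (∀ v : Fin n, (H.neighborSet v).ncard ≤ D) →
        Vale.Agent.Lib.Helper7.P064M.fracExpThreshold H
          ≤ 178 * (D : ℝ) * Vale.Agent.Lib.Helper7.P064M.expThreshold H) ∧
      (Vale.Agent.Lib.P064T.IsStarForest H →
        Vale.Agent.Lib.Helper7.P064M.fracExpThreshold H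
          ≤ 2000 * Vale.Agent.Lib.Helper7.P064M.expThreshold H) ∧
      (H.IsAcyclic →
        Vale.Agent.Lib.Helper7.P064M.fracExpThreshold H ≤
          96 * Vale.Agent.Lib.Helper7.P064M.expThreshold H
            + 8 * (1 + (Nat.log 2 n : ℝ)) / (n : ℝ))) :=
  ⟨fun _ H q hq0 hyp =>
      ⟨fun D hD F => Vale.Agent.Lib.P064B.bounded_degree_copies H D hD q hq0 hyp F,
        fun F hF => Vale.Agent.Lib.Helper7.P064M.forest_copies_of F H
          (Vale.Agent.Lib.P064T.forest_count F H hF) q hq0 hyp,
        fun F hF => Vale.Agent.Lib.P064D.forest_copies H q hq0 hyp F hF⟩,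
    fun _ H =>
      ⟨Vale.Agent.Lib.Helper7.P064M.expThreshold_le_frac H,
        Vale.Agent.Lib.P064D.general_threshold H,
        fun D hD => Vale.Agent.Lib.P064B.bounded_degree_threshold H D hD,
        fun hH => Vale.Agent.Lib.Helper7.P064M.frac_le_expThreshold H hH,
        fun hH => Vale.Agent.Lib.P064D.forest_threshold H hH⟩⟩

end Vale.Agent.Results.P064.CountingAndThresholds
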