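import Vale.Agent.Lib.P064D.General
import Vale.Agent.Lib.P064D.Forest

/-!
The two expectation thresholds of the second Kahn-Kalai conjecture: a comparison for every host
graph that is logarithmic in the sparse range, and the counting inequality for forests.

Graphs live on the vertex set `Fin n` (pad with isolated vertices). With `N(G, F)` the number of
subgraphs of `G` isomorphic to `F` and `K_n` the complete graph, the expected number of copies of
`F` at density `p` is `N(K_n, F) * p ^ e(F)` (`expCopies`). The expectation threshold of `H`
(`expThreshold`) is the least `p` in `[0, 1]` at which every `F ≤ H` has at least one half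
expected copies; the fractional expectation threshold (`fracExpThreshold`) is the least `p` in
`[0, 1]` at which every `F ≤ H` has at least `N(H, F) / 2` expected copies. Write `L` for
`Nat.log 2 n`, the integer part of the binary logarithm of `n`.

First part: for every `H`, the second threshold is at most
`178 * (12 * n * p_E + L + 1) * p_E`, where `p_E` is the first.

Second part: if every `F' ≤ H` has expected count at least one at density `q`, then for every
forest `F` (an acyclic graph) `N(H, F) ≤ N(K_n, F) * (min 1 (8 * (6 * q + (1 + L) / n))) ^ e(F)`.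

Third part: if `H` is a forest, the second threshold is at most `96 * p_E + 8 * (1 + L) / n`.
-/

namespace Vale.Agent.Results.P064.GeneralAndForestHosts

theorem result :
    (∀ (n : ℕ) (H : SimpleGraph (Fin n)),
      Vale.Agent.Lib.Helper7.P064M.fracExpThreshold H ≤
        178 * (12 * (n : ℝ) * Vale.Agent.Lib.Helper7.P064M.expThreshold H
          + (Nat.log 2 n : ℝ) + 1) * Vale.Agent.Lib.Helper7.P064M.expThreshold H) ∧
    (∀ (n : ℕ) (H : SimpleGraph (Fin n)) (q : ℝ), 0 ≤ q →
      (∀ F' : SimpleGraph (Fin n), F' ≤ H →
        1 ≤ ((⊤ : SimpleGraph (Fin n)).copyCount F' : ℝ) * q ^ F'.edgeSet.ncard) →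
      ∀ F : SimpleGraph (Fin n), F.IsAcyclic →
        (H.copyCount F : ℝ) ≤
          ((⊤ : SimpleGraph (Fin n)).copyCount F : ℝ) *
            (min 1 (8 * (6 * q + (1 + (Nat.log 2 n : ℝ)) / (n : ℝ)))) ^ F.edgeSet.ncard) ∧
    (∀ (n : ℕ) (H : SimpleGraph (Fin n)), H.IsAcyclic →
      Vale.Agent.Lib.Helper7.P064M.fracExpThreshold H ≤
        96 * Vale.Agent.Lib.Helper7.P064M.expThreshold H
          + 8 * (1 + (Nat.log 2 n : ℝ)) / (n : ℝ)) :=
  ⟨fun _ H => Vale.Agent.Lib.P064D.general_threshold H,
    fun _ H q hq0 hyp F hF => Vale.Agent.Lib.P064D.forest_copies H q hq0 hyp F hF,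
    fun _ H hH => Vale.Agent.Lib.P064D.forest_threshold H hH⟩

end Vale.Agent.Results.P064.GeneralAndForestHosts
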