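import Vale.Agent.Lib.Helper7.P064T6
import Vale.Agent.Lib.P064T.ForestCount

/-!
The counting inequality behind the second Kahn-Kalai conjecture for all star forests, and the
comparison of the two expectation thresholds for star forest hosts.

All graphs live on the vertex set `Fin n` (a graph with fewer vertices is padded with isolated
vertices). Write `N(G, F)` for the number of subgraphs of `G` isomorphic to `F` (Mathlib's
`SimpleGraph.copyCount G F`), `K_n` for the complete graph, `e(F)` for the number of edges of `F`;
the expected number of copies of `F` in the binomial random graph of density `p` is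
`N(K_n, F) * p ^ e(F)`. A star forest is a graph in which every edge has an endpoint whose only
neighbour is the other endpoint.

First part: for every graph `H`, every star forest `F` and every `q ≥ 0` such that every
`F' ≤ H` has expected count at least one at density `q`,

  `N(H, F) ≤ N(K_n, F) * (min 1 (1000 * q)) ^ e(F)`.

Second part: for every star forest `H` and every `q ≥ 0` such that every `F ≤ H` has expected
count at least one half at density `q`, every `F ≤ H` satisfies

  `N(H, F) ≤ N(K_n, F) * (min 1 (2000 * q)) ^ e(F)`.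
-/

namespace Vale.Agent.Results.P064.StarForests

theorem result :
    (∀ (n : ℕ) (H F : SimpleGraph (Fin n)) (q : ℝ), Vale.Agent.Lib.P064T.IsStarForest F → 0 ≤ q →
      (∀ F' : SimpleGraph (Fin n), F' ≤ H →
        1 ≤ ((⊤ : SimpleGraph (Fin n)).copyCount F' : ℝ) * q ^ F'.edgeSet.ncard) →
      (H.copyCount F : ℝ) ≤
        ((⊤ : SimpleGraph (Fin n)).copyCount F : ℝ) * (min 1 (1000 * q)) ^ F.edgeSet.ncard) ∧
    (∀ (n : ℕ) (H : SimpleGraph (Fin n)) (q : ℝ), Vale.Agent.Lib.P064T.IsStarForest H → 0 ≤ q →
      (∀ F : SimpleGraph (Fin n), F ≤ H →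
        1 / 2 ≤ ((⊤ : SimpleGraph (Fin n)).copyCount F : ℝ) * q ^ F.edgeSet.ncard) →
      ∀ F : SimpleGraph (Fin n), F ≤ H →
        (H.copyCount F : ℝ) ≤
          ((⊤ : SimpleGraph (Fin n)).copyCount F : ℝ) * (min 1 (2000 * q)) ^ F.edgeSet.ncard) :=
  ⟨fun _ H F q hF hq0 hyp =>
      Vale.Agent.Lib.Helper7.P064M.forest_copies_of F H
        (Vale.Agent.Lib.P064T.forest_count F H hF) q hq0 hyp,
    fun _ H q hH hq0 hyp =>
      Vale.Agent.Lib.Helper7.P064M.forest_host_of H
        (fun F hFH => Vale.Agent.Lib.P064T.forest_count F H (hH.mono hFH)) q hq0 hyp⟩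

end Vale.Agent.Results.P064.StarForests
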