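import Vale.Agent.Lib.Helper7.P064Thr

/-!
The two expectation thresholds of the second Kahn-Kalai conjecture agree up to a constant factor
for star forests.

Graphs live on the vertex set `Fin n` (pad with isolated vertices). With `N(G, F)` the number of
subgraphs of `G` isomorphic to `F` and `K_n` the complete graph, the expected number of copies of
`F` at density `p` is `N(K_n, F) * p ^ e(F)` (`expCopies`). The expectation threshold of `H`
(`expThreshold`) is the least `p` in `[0, 1]` at which every `F ≤ H` has at least one half
expected copies; the fractional expectation threshold (`fracExpThreshold`) is the least `p` in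
`[0, 1]` at which every `F ≤ H` has at least `N(H, F) / 2` expected copies.

Statement: the first is at most the second for every `H`, and for a star forest `H` (every edge
has an endpoint whose only neighbour is the other endpoint) the second is at most `2000` times
the first.
-/

namespace Vale.Agent.Results.P064.ThresholdComparison

theorem result :
    ∀ (n : ℕ) (H : SimpleGraph (Fin n)),
      Vale.Agent.Lib.Helper7.P064M.expThreshold H ≤ Vale.Agent.Lib.Helper7.P064M.fracExpThreshold H ∧
      (Vale.Agent.Lib.P064T.IsStarForest H →
        Vale.Agent.Lib.Helper7.P064M.fracExpThreshold H
          ≤ 2000 * Vale.Agent.Lib.Helper7.P064M.expThreshold H) :=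
  fun _ H => ⟨Vale.Agent.Lib.Helper7.P064M.expThreshold_le_frac H,
    Vale.Agent.Lib.Helper7.P064M.frac_le_expThreshold H⟩

end Vale.Agent.Results.P064.ThresholdComparison
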